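import Vale.Agent.Lib.P007.Obstruction

open MeasureTheory Filter Topology

namespace Vale.Agent.Results.P007.NecessaryCondition

open Vale.Agent.Lib.P007

theorem result (n : ℕ) (hn : 0 < n) (p : Polynomial ℤ) (hp : p ≠ 0)
    (hroot : ∀ z : ℤ, p.eval z ≠ 0)
    (m : Measure (X n)) (hm1 : IsProbabilityMeasure m) (hm2 : IsInvariant m)
    (K : ℕ → Type) [∀ i, Field (K i)] [∀ i, NumberField (K i)]
    (σ : ∀ i, Fin n ≃ (K i →+* ℝ)) (O : ∀ i, Subring (K i))
    (h : Equidistributes (fun i => packetMeasure (σ i) (O i)) m) :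
    ∀ᶠ i in atTop, ∀ a ∈ O i, Polynomial.aeval a p ≠ 0 := by
  obtain ⟨f, hf1, hf2, -, hf4, hf5⟩ := obstruction hn hp hroot
  have hpos := hf4 m hm1 hm2
  have h1 := h.1 f hf1 hf2
  have h2 : ∀ᶠ i in atTop, 0 < ∫ x, f x ∂(packetMeasure (σ i) (O i)) :=
    h1.eventually (lt_mem_nhds hpos)
  filter_upwards [h2] with i hi a ha hpa
  have := (hf5 (K i) (σ i) (O i) a ha hpa).2
  exact absurd this hi.ne'

end Vale.Agent.Results.P007.NecessaryCondition
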