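import Vale.Agent.Results.P007.CompositeDegree
import Vale.Agent.Results.P007.NecessaryCondition

open MeasureTheory Filter Topology

namespace Vale.Agent.Results.P007.Combined

open Vale.Agent.Lib.P007

/-- Both results on torus packets in one statement.

(1) For every composite `n ≥ 4` there is a totally real field of degree `n` with orders whose
discriminants tend to infinity and whose packet measures do not converge to the invariant
probability measure: one test function vanishes on all the packets and has positive integral.

(2) In every degree `n ≥ 1`: if the packet measures of any sequence `(K i, O i, σ i)` converge to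
an invariant probability measure, then for every nonzero integer polynomial `p` without integer
roots, the rings `O i` contain no root of `p` for all large `i`. -/
theorem result :
    (∀ n : ℕ, 4 ≤ n → ¬ n.Prime →
      ∃ (K : Type) (_ : Field K) (_ : NumberField K) (σ : Fin n ≃ (K →+* ℝ))
        (O : ℕ → Subring K) (D : ℕ → ℚ),
        Module.finrank ℚ K = n ∧ (∀ i, IsOrder (O i)) ∧ (∀ i, IsDisc n (O i) (D i)) ∧
        Tendsto (fun i => |D i|) atTop atTop ∧
        ∃ f : X n → ℝ, Continuous f ∧ HasCompactSupport f ∧
          (∀ i, ∀ S ∈ packet σ (O i), ∀ x ∈ S, f x = 0) ∧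
          (∀ i, ∫ x, f x ∂(packetMeasure σ (O i)) = 0) ∧
          ∀ m : Measure (X n), IsProbabilityMeasure m → IsInvariant m →
            0 < ∫ x, f x ∂m ∧ ¬ Equidistributes (fun i => packetMeasure σ (O i)) m) ∧
    (∀ n : ℕ, 0 < n → ∀ p : Polynomial ℤ, p ≠ 0 → (∀ z : ℤ, p.eval z ≠ 0) →
      ∀ m : Measure (X n), IsProbabilityMeasure m → IsInvariant m →
      ∀ (K : ℕ → Type) [∀ i, Field (K i)] [∀ i, NumberField (K i)]
        (σ : ∀ i, Fin n ≃ (K i →+* ℝ)) (O : ∀ i, Subring (K i)),
        Equidistributes (fun i => packetMeasure (σ i) (O i)) m →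
        ∀ᶠ i in atTop, ∀ a ∈ O i, Polynomial.aeval a p ≠ 0) :=
  ⟨CompositeDegree.result,
    fun n hn p hp hroot m hm1 hm2 K _ _ σ O h =>
      NecessaryCondition.result n hn p hp hroot m hm1 hm2 K σ O h⟩

end Vale.Agent.Results.P007.Combined
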