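import Vale.Agent.Lib.P007.Obstruction
import Vale.Agent.Lib.P007.Field
import Vale.Agent.Lib.P007.Orders

open MeasureTheory Filter Topology

namespace Vale.Agent.Results.P007.CompositeDegree

open Vale.Agent.Lib.P007

theorem hgen (d e : ℕ) (x : KK d e) : ∃ w : Polynomial ℚ, Polynomial.aeval (th d e) w = x := by
  obtain ⟨w, rfl⟩ := AdjoinRoot.mk_surjective x
  refine ⟨w, ?_⟩
  rw [← AdjoinRoot.aeval_eq]
  rfl

theorem hroot (d e : ℕ) :
    Polynomial.aeval (Polynomial.aeval (th d e) (PP (e + 2))) (pp (d + 2) (e + 2)) = 0 := by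
  rw [← Polynomial.aeval_comp]
  exact aeval_th d e

theorem aux (d e : ℕ) :
    ∃ (K : Type) (_ : Field K) (_ : NumberField K) (σ : Fin ((d + 2) * (e + 2)) ≃ (K →+* ℝ))
      (O : ℕ → Subring K) (D : ℕ → ℚ),
      Module.finrank ℚ K = (d + 2) * (e + 2) ∧ (∀ i, IsOrder (O i)) ∧
      (∀ i, IsDisc ((d + 2) * (e + 2)) (O i) (D i)) ∧
      Tendsto (fun i => |D i|) atTop atTop ∧
      ∃ f : X ((d + 2) * (e + 2)) → ℝ, Continuous f ∧ HasCompactSupport f ∧
        (∀ i, ∀ S ∈ packet σ (O i), ∀ x ∈ S, f x = 0) ∧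
        (∀ i, ∫ x, f x ∂(packetMeasure σ (O i)) = 0) ∧
        ∀ m : Measure (X ((d + 2) * (e + 2))), IsProbabilityMeasure m → IsInvariant m →
          0 < ∫ x, f x ∂m ∧ ¬ Equidistributes (fun i => packetMeasure σ (O i)) m := by
  have hpm := pp_monic (d := d + 2) (e + 2) (by omega)
  have hpd := pp_natDegree (d := d + 2) (e + 2) (by omega)
  have hPm := PP_monic (e := e + 2) (by omega)
  have hPd := PP_natDegree (e := e + 2) (by omega)
  obtain ⟨f, hf1, hf2, -, hf4, hf5⟩ := obstruction (n := (d + 2) * (e + 2))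
    (Nat.mul_pos (by omega) (by omega)) hpm.ne_zero (pp_no_root (by omega) (by omega))
  have hboth : ∀ i : ℕ,
      (∀ S ∈ packet (sigmaKK d e) (ordSub (th d e) (PP (e + 2)) ((i : ℤ) + 1)), ∀ x ∈ S, f x = 0) ∧
      ∫ x, f x ∂(packetMeasure (sigmaKK d e) (ordSub (th d e) (PP (e + 2)) ((i : ℤ) + 1))) = 0 := by
    intro i
    refine hf5 (KK d e) (sigmaKK d e) _ (Polynomial.aeval (th d e) (PP (e + 2))) ?_ (hroot d e)
    exact ⟨Polynomial.X, 0, by simp; rfl⟩
  have hzero := fun i => (hboth i).2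
  have hD0 := discr_BB_ne hpm hpd (by omega) hPm hPd (by omega) (hroot d e) (hgen d e)
    (finrank_KK d e)
  refine ⟨KK d e, inferInstance, inferInstance, sigmaKK d e,
    fun i => ordSub (th d e) (PP (e + 2)) ((i : ℤ) + 1),
    fun i => (∏ k, ((cc ((i : ℤ) + 1) (d + 2) (e + 2) k : ℤ) : ℚ)) ^ 2 *
      Algebra.discr ℚ (BB (th d e) (PP (e + 2)) (d + 2) (e + 2)),
    finrank_KK d e, ?_, ?_, ?_, f, hf1, hf2, fun i => (hboth i).1, hzero, ?_⟩
  · intro i
    exact ordSub_isOrder hpm hpd (by omega) hPm hPd (by omega) (hroot d e) (hgen d e)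
      (by positivity)
  · intro i
    exact ordSub_isDisc hpm hpd (by omega) hPm hPd (by omega) (hroot d e) (hgen d e)
      (finrank_KK d e) (by omega)
  · have hpos : 0 < |Algebra.discr ℚ (BB (th d e) (PP (e + 2)) (d + 2) (e + 2))| :=
      abs_pos.2 hD0
    have h1 : ∀ i : ℕ, (i : ℚ) * |Algebra.discr ℚ (BB (th d e) (PP (e + 2)) (d + 2) (e + 2))| ≤
        |(∏ k, ((cc ((i : ℤ) + 1) (d + 2) (e + 2) k : ℤ) : ℚ)) ^ 2 *
          Algebra.discr ℚ (BB (th d e) (PP (e + 2)) (d + 2) (e + 2))| := by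
      intro i
      rw [abs_mul, abs_sq]
      apply mul_le_mul_of_nonneg_right _ hpos.le
      have := prod_cc (d := d + 2) (e := e + 2) ((i : ℤ) + 1) (by omega) (by omega) (by omega)
      push_cast at this ⊢
      linarith
    exact tendsto_atTop_mono h1 (tendsto_natCast_atTop_atTop.atTop_mul_const hpos)
  · intro m hm1 hm2
    refine ⟨hf4 m hm1 hm2, fun h => ?_⟩
    have h1 := h.1 f hf1 hf2
    simp only [hzero] at h1
    have h2 := tendsto_nhds_unique h1 tendsto_const_nhds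
    exact absurd h2 (hf4 m hm1 hm2).ne'

theorem result (n : ℕ) (hn : 4 ≤ n) (hc : ¬ n.Prime) :
    ∃ (K : Type) (_ : Field K) (_ : NumberField K) (σ : Fin n ≃ (K →+* ℝ))
      (O : ℕ → Subring K) (D : ℕ → ℚ),
      Module.finrank ℚ K = n ∧ (∀ i, IsOrder (O i)) ∧ (∀ i, IsDisc n (O i) (D i)) ∧
      Tendsto (fun i => |D i|) atTop atTop ∧
      ∃ f : X n → ℝ, Continuous f ∧ HasCompactSupport f ∧
        (∀ i, ∀ S ∈ packet σ (O i), ∀ x ∈ S, f x = 0) ∧
        (∀ i, ∫ x, f x ∂(packetMeasure σ (O i)) = 0) ∧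
        ∀ m : Measure (X n), IsProbabilityMeasure m → IsInvariant m →
          0 < ∫ x, f x ∂m ∧ ¬ Equidistributes (fun i => packetMeasure σ (O i)) m := by
  obtain ⟨a, ⟨b, hab⟩, ha2, han⟩ := Nat.exists_dvd_of_not_prime2 (by omega) hc
  have hb2 : 2 ≤ b := by
    by_contra hcon
    have : b = 0 ∨ b = 1 := by omega
    rcases this with rfl | rfl <;> omega
  obtain ⟨d, rfl⟩ : ∃ d, a = d + 2 := ⟨a - 2, by omega⟩
  obtain ⟨e, rfl⟩ : ∃ e, b = e + 2 := ⟨b - 2, by omega⟩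
  subst hab
  exact aux d e

end Vale.Agent.Results.P007.CompositeDegree
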