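import Vale.Agent.Lib.P007.Example

open MeasureTheory Filter Topology

namespace Vale.Agent.Results.P007.QuarticCounterexample

open Vale.Agent.Lib.P007

theorem result :
    ∃ (K : Type) (_ : Field K) (_ : NumberField K) (σ : Fin 4 ≃ (K →+* ℝ))
      (O : ℕ → Subring K) (d : ℕ → ℚ),
      Module.finrank ℚ K = 4 ∧ (∀ i, IsOrder (O i)) ∧ (∀ i, IsDisc 4 (O i) (d i)) ∧
      Tendsto (fun i => |d i|) atTop atTop ∧
      ∃ f : X 4 → ℝ, Continuous f ∧ HasCompactSupport f ∧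
        (∀ i, ∀ S ∈ packet σ (O i), ∀ x ∈ S, f x = 0) ∧
        (∀ i, ∫ x, f x ∂(packetMeasure σ (O i)) = 0) ∧
        ∀ m : Measure (X 4), IsProbabilityMeasure m → IsInvariant m →
          0 < ∫ x, f x ∂m ∧ ¬ Equidistributes (fun i => packetMeasure σ (O i)) m := by
  have hp : (Polynomial.X ^ 2 - 2 : Polynomial ℤ) ≠ 0 := by
    intro h
    have := congrArg (fun q : Polynomial ℤ => q.eval 0) h
    simp at this
  have hroot : ∀ z : ℤ, (Polynomial.X ^ 2 - 2 : Polynomial ℤ).eval z ≠ 0 := by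
    intro z hz
    simp at hz
    have h1 : IsSquare (2 : ℤ) := ⟨z, by linarith [sq z]⟩
    exact absurd h1 (by norm_num)
  obtain ⟨f, hf1, hf2, -, hf4, hf5⟩ := obstruction (n := 4) (by norm_num) hp hroot
  have hboth : ∀ i : ℕ, (∀ S ∈ packet Ex.sigma (Ex.OrdF ((i : ℤ) + 1)), ∀ x ∈ S, f x = 0) ∧
      ∫ x, f x ∂(packetMeasure Ex.sigma (Ex.OrdF ((i : ℤ) + 1))) = 0 := by
    intro i
    refine hf5 Ex.K Ex.sigma (Ex.OrdF ((i : ℤ) + 1)) Ex.r2 (Ex.r2_mem _) ?_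
    have h2 : (2 : Polynomial ℤ) = Polynomial.C 2 := rfl
    rw [h2, map_sub, map_pow, Polynomial.aeval_X, Polynomial.aeval_C, sq, Ex.r2_mul]
    simp
  have hzero : ∀ i : ℕ, ∫ x, f x ∂(packetMeasure Ex.sigma (Ex.OrdF ((i : ℤ) + 1))) = 0 :=
    fun i => (hboth i).2
  refine ⟨Ex.K, inferInstance, inferInstance, Ex.sigma, fun i => Ex.OrdF ((i : ℤ) + 1),
    fun i => 9216 * (((i : ℤ) + 1 : ℤ) : ℚ) ^ 4, Ex.finrank_K, ?_, ?_, ?_, f, hf1, hf2,
    fun i => (hboth i).1, hzero, ?_⟩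
  · intro i
    exact ⟨Ex.OrdF_integral _, Ex.OrdF_span _ (by positivity)⟩
  · intro i
    exact ⟨Ex.bas _, Ex.bas_li _ (by positivity), Ex.bas_span _, (Ex.discr_bas _).symm⟩
  · have h1 : ∀ i : ℕ, (i : ℚ) ≤ |9216 * (((i : ℤ) + 1 : ℤ) : ℚ) ^ 4| := by
      intro i
      have h0 : (0 : ℚ) ≤ (i : ℚ) := by positivity
      rw [abs_of_nonneg (by positivity)]
      push_cast
      nlinarith [sq_nonneg ((i : ℚ) + 1), sq_nonneg (((i : ℚ) + 1) ^ 2 - 1),
        sq_nonneg ((i : ℚ)), pow_pos (by positivity : (0 : ℚ) < (i : ℚ) + 1) 4]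
    exact tendsto_atTop_mono h1 tendsto_natCast_atTop_atTop
  · intro m hm1 hm2
    refine ⟨hf4 m hm1 hm2, fun h => ?_⟩
    have h1 := h.1 f hf1 hf2
    simp only [hzero] at h1
    have h2 := tendsto_nhds_unique h1 tendsto_const_nhds
    exact absurd h2 (hf4 m hm1 hm2).ne'

end Vale.Agent.Results.P007.QuarticCounterexample
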